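import Vale.Agent.P063.Thin

/-!
# P063: the clique property of `r`-uniform hypergraphs has a wide threshold
-/

namespace Vale.Agent.P063
open Finset Filter

/-- the edges contained in the vertex set `K` -/
def cliqueEdges (n r : ℕ) (K : Finset (Fin n)) : HG n r :=
  Finset.univ.filter (fun e => e.1 ⊆ K)

/-- the property of containing a complete `r`-uniform hypergraph on `k` vertices -/
def HasClique (n r k : ℕ) : Set (HG n r) :=
  {H | ∃ K : Finset (Fin n), K.card = k ∧ cliqueEdges n r K ⊆ H}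

variable {n r k : ℕ}

lemma card_cliqueEdges (K : Finset (Fin n)) : (cliqueEdges n r K).card = K.card.choose r := by
  classical
  rw [← Finset.card_powersetCard]
  refine Finset.card_bij (fun e _ => e.1) ?_ ?_ ?_
  · intro e he
    rw [Finset.mem_powersetCard]
    exact ⟨(Finset.mem_filter.1 he).2, e.2⟩
  · intro e _ e' _ h
    exact Subtype.ext h
  · intro s hs
    rw [Finset.mem_powersetCard] at hs
    exact ⟨⟨s, hs.2⟩, Finset.mem_filter.2 ⟨Finset.mem_univ _, hs.1⟩, rfl⟩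

lemma hasClique_incr : Incr (HasClique n r k) := by
  rintro H H' hHH' ⟨K, hK, hKH⟩
  exact ⟨K, hK, hKH.trans hHH'⟩

lemma hasClique_isProp : IsProp (HasClique n r k) := by
  classical
  rintro σ H ⟨K, hK, hKH⟩
  refine ⟨K.map σ.toEmbedding, by rw [Finset.card_map]; exact hK, ?_⟩
  intro e he
  have he' : e.1 ⊆ K.map σ.toEmbedding := (Finset.mem_filter.1 he).2
  unfold permHG
  rw [Finset.mem_image]
  refine ⟨permEdge σ⁻¹ e, hKH ?_, ?_⟩
  · refine Finset.mem_filter.2 ⟨Finset.mem_univ _, ?_⟩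
    intro x hx
    simp only [permEdge, Finset.mem_map, Equiv.coe_toEmbedding] at hx
    obtain ⟨y, hy, rfl⟩ := hx
    have := he' hy
    simp only [Finset.mem_map, Equiv.coe_toEmbedding] at this
    obtain ⟨z, hz, rfl⟩ := this
    simpa using hz
  · apply Subtype.ext
    ext x
    simp only [permEdge, Finset.mem_map, Equiv.coe_toEmbedding]
    constructor
    · rintro ⟨y, ⟨z, hz, rfl⟩, rfl⟩
      simpa using hz
    · intro hx
      exact ⟨σ⁻¹ x, ⟨x, hx, rfl⟩, by simp⟩

lemma hasClique_nontriv (hrk : r ≤ k) (hkn : k ≤ n) : Nontriv (HasClique n r k) := by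
  classical
  constructor
  · obtain ⟨K, _, hK⟩ := Finset.exists_subset_card_eq (s := (Finset.univ : Finset (Fin n)))
      (n := k) (by simpa using hkn)
    exact ⟨Finset.univ, K, hK, Finset.subset_univ _⟩
  · refine ⟨∅, ?_⟩
    rintro ⟨K, hK, hKH⟩
    have h0 : (cliqueEdges n r K).card = 0 := by
      rw [Finset.subset_empty.1 hKH]; rfl
    rw [card_cliqueEdges, hK] at h0
    exact (Nat.choose_pos hrk).ne' h0

lemma hasClique_minterm : MintermLE (HasClique n r k) (k.choose r) := by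
  rintro G ⟨K, hK, hKG⟩
  exact ⟨cliqueEdges n r K, hKG, ⟨K, hK, subset_rfl⟩, by rw [card_cliqueEdges, hK]⟩

lemma sum_superset {α : Type} [Fintype α] [DecidableEq α] (p : ℝ) (F : Finset α) :
    ∑ H ∈ Finset.Icc F Finset.univ, p ^ H.card * (1 - p) ^ (Fintype.card α - H.card)
      = p ^ F.card := by
  have h := interval_sum p (1 - p) (Finset.subset_univ F)
  have e : p + (1 - p) = 1 := by ring
  rw [e, one_pow, Finset.card_univ] at h
  calc _ = ∑ H ∈ Finset.Icc F Finset.univ,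
        p ^ F.card * (p ^ (H.card - F.card) * (1 - p) ^ (Fintype.card α - H.card)) := by
        refine Finset.sum_congr rfl ?_
        intro H hH
        have hc : F.card ≤ H.card := Finset.card_le_card (Finset.mem_Icc.1 hH).1
        have e1 : p ^ H.card = p ^ F.card * p ^ (H.card - F.card) := by
          rw [← pow_add]; congr 1; omega
        rw [e1]; ring
    _ = _ := by rw [← Finset.mul_sum, h, mul_one]

lemma mu_hasClique_le {p : ℝ} (hp0 : 0 ≤ p) (hp1 : p ≤ 1) :
    mu p (HasClique n r k) ≤ (n.choose k : ℝ) * p ^ (k.choose r) := by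
  classical
  have h1p : 0 ≤ 1 - p := by linarith
  unfold mu
  calc _ ≤ ∑ H : HG n r, ∑ K ∈ Finset.powersetCard k (Finset.univ : Finset (Fin n)),
        (if cliqueEdges n r K ⊆ H then
          p ^ H.card * (1 - p) ^ (Fintype.card (Edge n r) - H.card) else 0) := by
        refine Finset.sum_le_sum ?_
        intro H _
        by_cases hH : H ∈ HasClique n r k
        · rw [Set.indicator_of_mem hH]
          obtain ⟨K, hK, hKH⟩ := hH
          have hmem : K ∈ Finset.powersetCard k (Finset.univ : Finset (Fin n)) :=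
            Finset.mem_powersetCard.2 ⟨Finset.subset_univ _, hK⟩
          refine le_trans (le_of_eq ?_) (Finset.single_le_sum
            (f := fun K => if cliqueEdges n r K ⊆ H then
              p ^ H.card * (1 - p) ^ (Fintype.card (Edge n r) - H.card) else 0) ?_ hmem)
          · simp [hKH]
          · intro K' _
            split_ifs
            · positivity
            · exact le_refl _
        · rw [Set.indicator_of_notMem hH]
          refine Finset.sum_nonneg ?_
          intro K' _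
          split_ifs
          · positivity
          · exact le_refl _
    _ = ∑ K ∈ Finset.powersetCard k (Finset.univ : Finset (Fin n)), p ^ (k.choose r) := by
        rw [Finset.sum_comm]
        refine Finset.sum_congr rfl ?_
        intro K hK
        rw [← Finset.sum_filter]
        have : (Finset.univ.filter fun H : HG n r => cliqueEdges n r K ⊆ H)
            = Finset.Icc (cliqueEdges n r K) Finset.univ := by
          ext H; simp [Finset.mem_Icc]
        rw [this, sum_superset, card_cliqueEdges, (Finset.mem_powersetCard.1 hK).2]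
    _ = _ := by
        rw [Finset.sum_const, Finset.card_powersetCard, Finset.card_univ, Fintype.card_fin,
          nsmul_eq_mul]

lemma three_pow_ge (r : ℕ) (hr : 2 ≤ r) : 4 * r + 1 ≤ 3 ^ r := by
  induction r, hr using Nat.le_induction with
  | base => norm_num
  | succ m hm ih => rw [pow_succ]; omega

/-- lower bound for the binomial coefficient -/
lemma choose_lower (r s : ℕ) (hr : 2 ≤ r) (hs : 1 ≤ s) :
    s ^ (r - 1) * (4 * r * s) + 1 ≤ (4 * r * s).choose r := by
  set k := 4 * r * s with hk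
  have h1 : (k + 1 - r) ^ r ≤ k.descFactorial r := Nat.pow_sub_le_descFactorial k r
  rw [Nat.descFactorial_eq_factorial_mul_choose] at h1
  have h2 : r.factorial ≤ r ^ r := Nat.factorial_le_pow r
  have h3 : 3 * r * s ≤ k + 1 - r := by
    have : r ≤ r * s := Nat.le_mul_of_pos_right r hs
    have e : k = 3 * r * s + r * s := by rw [hk]; ring
    omega
  have h4 : (3 * r * s) ^ r ≤ r ^ r * k.choose r :=
    (Nat.pow_le_pow_left h3 r).trans (h1.trans (Nat.mul_le_mul_right _ h2))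
  have h5 : (3 * r * s) ^ r = r ^ r * (3 * s) ^ r := by
    rw [← mul_pow]; congr 1; ring
  rw [h5] at h4
  have h6 : (3 * s) ^ r ≤ k.choose r := Nat.le_of_mul_le_mul_left h4 (by positivity)
  refine le_trans ?_ h6
  have h7 : s ^ r = s ^ (r - 1) * s := by
    rw [← pow_succ]; congr 1; omega
  rw [mul_pow, h7]
  have h8 := three_pow_ge r hr
  have h9 : 1 ≤ s ^ (r - 1) * s := Nat.mul_pos (by positivity) hs
  calc s ^ (r - 1) * k + 1 = 4 * r * (s ^ (r - 1) * s) + 1 := by rw [hk]; ring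
    _ ≤ 4 * r * (s ^ (r - 1) * s) + s ^ (r - 1) * s := by omega
    _ = (4 * r + 1) * (s ^ (r - 1) * s) := by ring
    _ ≤ 3 ^ r * (s ^ (r - 1) * s) := Nat.mul_le_mul_right _ h8

/-- first moment numerics -/
lemma first_moment (n r s : ℕ) (hr : 2 ≤ r) (hs : 1 ≤ s) (hn : n ≤ 2 ^ (s ^ (r - 1))) :
    ((n.choose (4 * r * s) : ℕ) : ℝ) * (1 / 2 : ℝ) ^ ((4 * r * s).choose r) ≤ 1 / 2 := by
  set k := 4 * r * s with hk
  have h1 : n.choose k ≤ n ^ k := Nat.choose_le_pow n k
  have h2 : n ^ k ≤ 2 ^ (s ^ (r - 1) * k) := by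
    calc n ^ k ≤ (2 ^ (s ^ (r - 1))) ^ k := Nat.pow_le_pow_left hn k
      _ = 2 ^ (s ^ (r - 1) * k) := (pow_mul _ _ _).symm
  have h3 := choose_lower r s hr hs
  rw [← hk] at h3
  have h4 : (n.choose k : ℝ) ≤ 2 ^ (s ^ (r - 1) * k) := by exact_mod_cast h1.trans h2
  have h5 : (1 / 2 : ℝ) ^ (k.choose r) ≤ (1 / 2 : ℝ) ^ (s ^ (r - 1) * k + 1) :=
    pow_le_pow_of_le_one (by norm_num) (by norm_num) h3
  calc (n.choose k : ℝ) * (1 / 2 : ℝ) ^ (k.choose r)
      ≤ 2 ^ (s ^ (r - 1) * k) * (1 / 2 : ℝ) ^ (s ^ (r - 1) * k + 1) :=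
        mul_le_mul h4 h5 (by positivity) (by positivity)
    _ = 1 / 2 := by
        rw [pow_succ, ← mul_assoc, ← mul_pow]; norm_num

/-- the parameter `s` -/
noncomputable def sPar (r : ℕ) (x : ℝ) : ℕ := ⌈(2 * x) ^ ((1 : ℝ) / ((r : ℝ) - 1))⌉₊

section
variable {r : ℕ} {x : ℝ}

lemma y_ge_one (hr : 2 ≤ r) (hx : 1 / 2 ≤ x) : 1 ≤ (2 * x) ^ ((1 : ℝ) / ((r : ℝ) - 1)) := by
  have hr' : (2 : ℝ) ≤ r := by exact_mod_cast hr
  refine Real.one_le_rpow (by linarith) ?_
  have : 0 < (r : ℝ) - 1 := by linarith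
  positivity

lemma sPar_ge_one (hr : 2 ≤ r) (hx : 1 / 2 ≤ x) : 1 ≤ sPar r x := by
  unfold sPar
  rw [Nat.one_le_ceil_iff]
  linarith [y_ge_one hr hx]

lemma sPar_le (hr : 2 ≤ r) (hx : 1 / 2 ≤ x) :
    (sPar r x : ℝ) ≤ 2 * (2 * x) ^ ((1 : ℝ) / ((r : ℝ) - 1)) := by
  have h1 := y_ge_one hr hx
  have h2 := Nat.ceil_lt_add_one (a := (2 * x) ^ ((1 : ℝ) / ((r : ℝ) - 1))) (by linarith)
  unfold sPar
  linarith

lemma le_sPar_pow (hr : 2 ≤ r) (hx : 1 / 2 ≤ x) : 2 * x ≤ (sPar r x : ℝ) ^ (r - 1) := by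
  have hr' : (2 : ℝ) ≤ r := by exact_mod_cast hr
  have hpos : 0 < (r : ℝ) - 1 := by linarith
  have h1 := y_ge_one hr hx
  have h2 : (2 * x) ^ ((1 : ℝ) / ((r : ℝ) - 1)) ≤ (sPar r x : ℝ) := Nat.le_ceil _
  have h3 : ((2 * x) ^ ((1 : ℝ) / ((r : ℝ) - 1))) ^ (r - 1) = 2 * x := by
    rw [← Real.rpow_natCast, ← Real.rpow_mul (by linarith)]
    have : ((r - 1 : ℕ) : ℝ) = (r : ℝ) - 1 := by
      rw [Nat.cast_sub (by omega)]; simp
    rw [this, one_div, inv_mul_cancel₀ hpos.ne', Real.rpow_one]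
  rw [← h3]
  exact pow_le_pow_left₀ (by linarith) h2 _

lemma sPar_le_lin (hr : 2 ≤ r) (hx : 1 / 2 ≤ x) : (sPar r x : ℝ) ≤ 4 * x := by
  have hr' : (2 : ℝ) ≤ r := by exact_mod_cast hr
  have hpos : 0 < (r : ℝ) - 1 := by linarith
  have h1 := sPar_le hr hx
  have h2 : (2 * x) ^ ((1 : ℝ) / ((r : ℝ) - 1)) ≤ (2 * x) ^ (1 : ℝ) := by
    refine Real.rpow_le_rpow_of_exponent_le (by linarith) ?_
    rw [div_le_one hpos]; linarith
  rw [Real.rpow_one] at h2
  linarith

lemma sPar_pow_le (hr : 2 ≤ r) (hx : 1 / 2 ≤ x) :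
    (sPar r x : ℝ) ^ r ≤ 2 ^ r * 4 * x ^ ((r : ℝ) / ((r : ℝ) - 1)) := by
  have hr' : (2 : ℝ) ≤ r := by exact_mod_cast hr
  have hpos : 0 < (r : ℝ) - 1 := by linarith
  have hx0 : 0 < x := by linarith
  have h1 := sPar_le hr hx
  have h2 : (sPar r x : ℝ) ^ r ≤ (2 * (2 * x) ^ ((1 : ℝ) / ((r : ℝ) - 1))) ^ r :=
    pow_le_pow_left₀ (by positivity) h1 _
  refine h2.trans ?_
  rw [mul_pow, mul_assoc]
  refine mul_le_mul_of_nonneg_left ?_ (by positivity)
  rw [← Real.rpow_natCast, ← Real.rpow_mul (by linarith)]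
  have e : (1 : ℝ) / ((r : ℝ) - 1) * (r : ℝ) = (r : ℝ) / ((r : ℝ) - 1) := by ring
  rw [e, Real.mul_rpow (by norm_num) hx0.le]
  refine mul_le_mul_of_nonneg_right ?_ (by positivity)
  have h3 : (r : ℝ) / ((r : ℝ) - 1) ≤ 2 := by
    rw [div_le_iff₀ hpos]; linarith
  calc (2 : ℝ) ^ ((r : ℝ) / ((r : ℝ) - 1)) ≤ (2 : ℝ) ^ (2 : ℝ) :=
        Real.rpow_le_rpow_of_exponent_le (by norm_num) h3
    _ = 4 := by norm_num

lemma n_le_two_pow {n : ℕ} (hn : 1 ≤ n) (hr : 2 ≤ r) (hx : 1 / 2 ≤ Real.log n) :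
    n ≤ 2 ^ ((sPar r (Real.log n)) ^ (r - 1)) := by
  have h1 := le_sPar_pow hr hx
  have hn' : (0 : ℝ) < n := by exact_mod_cast hn
  have h2 : Real.log n ≤ Real.log ((2 : ℝ) ^ ((sPar r (Real.log n)) ^ (r - 1))) := by
    rw [Real.log_pow]
    have hl : (1 : ℝ) / 2 ≤ Real.log 2 := by
      have := Real.log_two_gt_d9; linarith
    push_cast
    nlinarith
  have h3 : (n : ℝ) ≤ (2 : ℝ) ^ ((sPar r (Real.log n)) ^ (r - 1)) :=
    (Real.log_le_log_iff hn' (by positivity)).1 h2
  exact_mod_cast h3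

end

lemma eventually_log (r : ℕ) : ∃ n₀ : ℕ, ∀ n : ℕ, n₀ ≤ n →
    1 ≤ n ∧ 1 / 2 ≤ Real.log n ∧ 16 * (r : ℝ) * Real.log n ≤ n := by
  have h1 : ∀ᶠ x : ℝ in atTop, ‖Real.log x‖ ≤ (1 / (16 * (r : ℝ) + 1)) * ‖id x‖ :=
    Real.isLittleO_log_id_atTop.bound (by positivity)
  have h2 : ∀ᶠ x : ℝ in atTop, 1 / 2 ≤ Real.log x :=
    Real.tendsto_log_atTop.eventually_ge_atTop _
  have h3 : ∀ᶠ x : ℝ in atTop, 1 ≤ x := eventually_ge_atTop 1
  have h4 := (tendsto_natCast_atTop_atTop (R := ℝ)).eventually (h1.and (h2.and h3))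
  obtain ⟨n₀, hn₀⟩ := eventually_atTop.1 h4
  refine ⟨n₀, fun n hn => ?_⟩
  obtain ⟨a, b, c⟩ := hn₀ n hn
  refine ⟨by exact_mod_cast c, b, ?_⟩
  have hlog : 0 ≤ Real.log n := by linarith
  rw [Real.norm_of_nonneg hlog, id, Real.norm_of_nonneg (by linarith)] at a
  have hpos : (0 : ℝ) < 16 * (r : ℝ) + 1 := by positivity
  have : Real.log n * (16 * (r : ℝ) + 1) ≤ n := by
    rw [← le_div_iff₀ hpos]
    calc Real.log n ≤ 1 / (16 * (r : ℝ) + 1) * n := a
      _ = n / (16 * (r : ℝ) + 1) := by ring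
  nlinarith

lemma one_sub_exp_ge {y : ℝ} (hy : 0 ≤ y) : y / (1 + y) ≤ 1 - Real.exp (-y) := by
  have h1 : 1 + y ≤ Real.exp y := by linarith [Real.add_one_le_exp y]
  have h2 : Real.exp (-y) ≤ 1 / (1 + y) := by
    rw [Real.exp_neg, ← one_div]
    exact one_div_le_one_div_of_le (by linarith) h1
  have h3 : y / (1 + y) = 1 - 1 / (1 + y) := by
    field_simp; ring
  rw [h3]; linarith

/-- tightness of the exponent `r/(r-1)` -/
theorem clique_tight (r : ℕ) (hr : 2 ≤ r) : ∃ c : ℝ, 0 < c ∧ ∃ n₀ : ℕ, ∀ n : ℕ, n₀ ≤ n →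
    ∀ ε : ℝ, 0 < ε → ε < 1 / 2 → ∃ P : Set (HG n r), IsProp P ∧ Incr P ∧ Nontriv P ∧
      c * min 1 (Real.log ((1 - ε) / ε) / (Real.log n) ^ ((r : ℝ) / ((r : ℝ) - 1))) ≤ width ε P := by
  obtain ⟨n₀, hn₀⟩ := eventually_log r
  set C : ℝ := (4 * (r : ℝ)) ^ r * (2 ^ r * 4) with hC
  have hCpos : 0 < C := by
    have : (0 : ℝ) < r := by exact_mod_cast (by omega : 0 < r)
    positivity
  refine ⟨1 / (2 * (1 + C)), by positivity, n₀, ?_⟩
  intro n hn ε hε0 hε1
  obtain ⟨hn1, hx, hlin⟩ := hn₀ n hn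
  set x := Real.log n with hxdef
  set s := sPar r x with hs
  set k := 4 * r * s with hk
  set X := x ^ ((r : ℝ) / ((r : ℝ) - 1)) with hX
  have hx0 : 0 < x := by linarith
  have hXpos : 0 < X := Real.rpow_pos_of_pos hx0 _
  have hs1 : 1 ≤ s := sPar_ge_one hr hx
  have hrk : r ≤ k := by
    have : r * 1 ≤ r * (4 * s) := Nat.mul_le_mul_left r (by omega)
    calc r = r * 1 := (mul_one r).symm
      _ ≤ r * (4 * s) := this
      _ = k := by rw [hk]; ring
  have hkn : k ≤ n := by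
    have h1 : (s : ℝ) ≤ 4 * x := sPar_le_lin hr hx
    have hr0 : (0 : ℝ) ≤ r := by positivity
    have h2 : (k : ℝ) ≤ n := by
      rw [hk]; push_cast
      calc 4 * (r : ℝ) * s ≤ 4 * (r : ℝ) * (4 * x) := by
            exact mul_le_mul_of_nonneg_left h1 (by positivity)
        _ = 16 * (r : ℝ) * x := by ring
        _ ≤ n := hlin
    exact_mod_cast h2
  refine ⟨HasClique n r k, hasClique_isProp, hasClique_incr, hasClique_nontriv hrk hkn, ?_⟩
  have hInc : Incr (HasClique n r k) := hasClique_incr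
  have hU : Finset.univ ∈ HasClique n r k := univ_mem hInc (hasClique_nontriv hrk hkn)
  set M := k.choose r with hM
  have hM1 : 1 ≤ M := Nat.choose_pos hrk
  have hMpos : (0 : ℝ) < M := by exact_mod_cast hM1
  -- the critical probability
  have hcrit : 1 / 2 ≤ crit (1 - ε) (HasClique n r k) := by
    refine le_crit hInc hU (by linarith) (by norm_num) ?_
    have h1 := mu_hasClique_le (n := n) (r := r) (k := k) (p := 1 / 2) (by norm_num) (by norm_num)
    have h2 := first_moment n r s hr hs1 (n_le_two_pow hn1 hr hx)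
    rw [← hk] at h2
    linarith
  -- the parameter theta
  set L := Real.log ((1 - ε) / ε) with hL
  have hu : 1 < (1 - ε) / ε := by
    rw [lt_div_iff₀ hε0]; linarith
  have hLpos : 0 < L := Real.log_pos hu
  have hθM : Real.exp (-(L / M)) ^ M = ε / (1 - ε) := by
    rw [← Real.exp_nat_mul]
    have : (M : ℝ) * -(L / M) = -L := by field_simp
    rw [this, Real.exp_neg, hL, Real.exp_log (by linarith), inv_div]
  have hw := width_ge hInc hU hasClique_minterm (ε := ε) (θ := Real.exp (-(L / M))) hε0.le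
    (Real.exp_pos _) (by rw [Real.exp_le_one_iff]; have : 0 ≤ L / M := by positivity
                         linarith)
    (by rw [← hM, hθM]; have : (1 - ε) ≠ 0 := by linarith
        field_simp; exact le_refl _)
  have h1θ : L / (M + L) ≤ 1 - Real.exp (-(L / M)) := by
    have h := one_sub_exp_ge (y := L / M) (by positivity)
    have e : L / M / (1 + L / M) = L / (M + L) := by field_simp
    rwa [e] at h
  have hLM : 0 < L / (M + L) := by positivity
  have hw2 : L / (M + L) * (1 / 2) ≤ width ε (HasClique n r k) := by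
    refine le_trans ?_ hw
    exact mul_le_mul h1θ hcrit (by norm_num) (by linarith)
  -- the size of M
  have hMle : (M : ℝ) ≤ C * X := by
    have h1 : M ≤ k ^ r := Nat.choose_le_pow k r
    have h2 : (M : ℝ) ≤ (k : ℝ) ^ r := by exact_mod_cast h1
    have h3 : (k : ℝ) ^ r = (4 * (r : ℝ)) ^ r * (s : ℝ) ^ r := by
      rw [hk]; push_cast; rw [mul_pow]
    have h4 := sPar_pow_le hr hx
    rw [← hs, ← hX] at h4
    calc (M : ℝ) ≤ (4 * (r : ℝ)) ^ r * (s : ℝ) ^ r := by rw [← h3]; exact h2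
      _ ≤ (4 * (r : ℝ)) ^ r * (2 ^ r * 4 * X) := by
          exact mul_le_mul_of_nonneg_left h4 (by positivity)
      _ = C * X := by rw [hC]; ring
  refine le_trans ?_ hw2
  rcases le_total L X with hLX | hLX
  · have h5 : min 1 (L / X) ≤ L / X := min_le_right _ _
    have h6 : (M : ℝ) + L ≤ (1 + C) * X := by nlinarith
    calc 1 / (2 * (1 + C)) * min 1 (L / X) ≤ 1 / (2 * (1 + C)) * (L / X) :=
          mul_le_mul_of_nonneg_left h5 (by positivity)
      _ = L / ((1 + C) * X) * (1 / 2) := by field_simp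
      _ ≤ L / (M + L) * (1 / 2) := by
          refine mul_le_mul_of_nonneg_right ?_ (by norm_num)
          exact div_le_div_of_nonneg_left hLpos.le (by positivity) h6
  · have h5 : min 1 (L / X) ≤ 1 := min_le_left _ _
    have h6 : (M : ℝ) + L ≤ (1 + C) * L := by nlinarith
    calc 1 / (2 * (1 + C)) * min 1 (L / X) ≤ 1 / (2 * (1 + C)) * 1 :=
          mul_le_mul_of_nonneg_left h5 (by positivity)
      _ = L / ((1 + C) * L) * (1 / 2) := by field_simp
      _ ≤ L / (M + L) * (1 / 2) := by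
          refine mul_le_mul_of_nonneg_right ?_ (by norm_num)
          exact div_le_div_of_nonneg_left hLpos.le (by positivity) h6

end Vale.Agent.P063
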