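import Mathlib

/-!
# P063: definitions (threshold width of hypergraph properties)
-/

namespace Vale.Agent.P063

open Finset

/-- The possible edges of an `r`-uniform hypergraph on the vertex set `Fin n`: the `r`-subsets. -/
abbrev Edge (n r : ℕ) := {e : Finset (Fin n) // e.card = r}

/-- A (simple) `r`-uniform hypergraph on the vertex set `Fin n` is a set of edges. -/
abbrev HG (n r : ℕ) := Finset (Edge n r)

/-- The image of an edge under a permutation of the vertices. -/
def permEdge {n r : ℕ} (σ : Equiv.Perm (Fin n)) (e : Edge n r) : Edge n r :=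
  ⟨e.1.map σ.toEmbedding, by rw [Finset.card_map]; exact e.2⟩

/-- The image of a hypergraph under a permutation of the vertices. -/
def permHG {n r : ℕ} (σ : Equiv.Perm (Fin n)) (H : HG n r) : HG n r :=
  H.image (permEdge σ)

/-- `P` is an `r`-uniform hypergraph property: invariant under all vertex permutations. -/
def IsProp {n r : ℕ} (P : Set (HG n r)) : Prop :=
  ∀ σ : Equiv.Perm (Fin n), ∀ H, H ∈ P → permHG σ H ∈ P

/-- A family of subsets of `α` is increasing if adding elements preserves membership. -/
def Incr {α : Type} (P : Set (Finset α)) : Prop :=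
  ∀ H H' : Finset α, H ⊆ H' → H ∈ P → H' ∈ P

/-- A family is nontrivial if it is neither empty nor everything. -/
def Nontriv {α : Type} (P : Set (Finset α)) : Prop :=
  (∃ H, H ∈ P) ∧ ∃ H, H ∉ P

/-- `mu p P`: the probability that the random subset of `α`, containing each element independently
with probability `p`, lies in `P`. -/
noncomputable def mu {α : Type} [Fintype α] [DecidableEq α] (p : ℝ) (P : Set (Finset α)) : ℝ :=
  ∑ H : Finset α, P.indicator (fun H => p ^ H.card * (1 - p) ^ (Fintype.card α - H.card)) H

/-- `crit a P = inf {p ∈ [0,1] : mu p P ≥ a}`. -/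
noncomputable def crit {α : Type} [Fintype α] [DecidableEq α] (a : ℝ) (P : Set (Finset α)) : ℝ :=
  sInf {p : ℝ | 0 ≤ p ∧ p ≤ 1 ∧ a ≤ mu p P}

/-- The threshold width `w_ε(P) = p_{1-ε}(P) - p_ε(P)`. -/
noncomputable def width {α : Type} [Fintype α] [DecidableEq α] (ε : ℝ) (P : Set (Finset α)) : ℝ :=
  crit (1 - ε) P - crit ε P

/-- Every member of `P` contains a member of `P` with at most `M` elements
(all minimal members of `P` have at most `M` elements). -/
def MintermLE {α : Type} (P : Set (Finset α)) (M : ℕ) : Prop :=
  ∀ G ∈ P, ∃ S₀ ⊆ G, S₀ ∈ P ∧ S₀.card ≤ M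

end Vale.Agent.P063
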