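import Vale.Agent.P063.Defs

/-!
# P063: thinning a random subset; the general lower bound for the threshold width
-/

namespace Vale.Agent.P063
open Finset

set_option linter.unusedSectionVars false

section
variable {α : Type} [DecidableEq α]

lemma interval_sum (a b : ℝ) {S₀ G : Finset α} (h : S₀ ⊆ G) :
    ∑ S ∈ Finset.Icc S₀ G, a ^ (S.card - S₀.card) * b ^ (G.card - S.card)
      = (a + b) ^ (G.card - S₀.card) := by
  rw [Finset.Icc_eq_image_powerset h, Finset.sum_image]
  · rw [← Finset.card_sdiff_of_subset h, ← Finset.sum_pow_mul_eq_add_pow]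
    refine Finset.sum_congr rfl ?_
    intro T hT
    rw [Finset.mem_powerset] at hT
    have hd : Disjoint S₀ T := by
      rw [Finset.disjoint_left]
      intro x hx hxT
      exact (Finset.mem_sdiff.1 (hT hxT)).2 hx
    have h1 : (S₀ ∪ T).card = S₀.card + T.card := Finset.card_union_of_disjoint hd
    have h2 : (G \ S₀).card = G.card - S₀.card := Finset.card_sdiff_of_subset h
    have h3 : S₀.card ≤ G.card := Finset.card_le_card h
    have h4 : T.card ≤ (G \ S₀).card := Finset.card_le_card hT
    rw [h1]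
    congr 2 <;> omega
  · intro T hT T' hT' hEq
    simp only [Finset.coe_powerset, Set.mem_preimage, Set.mem_powerset_iff, Finset.coe_subset] at hT hT'
    have key : ∀ U : Finset α, U ⊆ G \ S₀ → (S₀ ∪ U) \ S₀ = U := by
      intro U hU
      ext x
      simp only [Finset.mem_sdiff, Finset.mem_union]
      constructor
      · rintro ⟨h1 | h1, h2⟩
        · exact absurd h1 h2
        · exact h1
      · intro hx
        exact ⟨Or.inr hx, (Finset.mem_sdiff.1 (hU hx)).2⟩
    have := congrArg (· \ S₀) hEq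
    simp only at this
    rwa [key T hT, key T' hT'] at this

/-- probability that the `θ`-thinning of `G` lies in `P` -/
noncomputable def thin (θ : ℝ) (P : Set (Finset α)) (G : Finset α) : ℝ :=
  ∑ S ∈ G.powerset, P.indicator (fun S => θ ^ S.card * (1 - θ) ^ (G.card - S.card)) S

lemma thin_le {θ : ℝ} (h0 : 0 ≤ θ) (h1 : θ ≤ 1) {P : Set (Finset α)} (hP : Incr P)
    (G : Finset α) : thin θ P G ≤ P.indicator (fun _ => (1 : ℝ)) G := by
  classical
  unfold thin
  by_cases hG : G ∈ P
  · rw [Set.indicator_of_mem hG]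
    have htot := Finset.sum_pow_mul_eq_add_pow θ (1 - θ) G
    have : θ + (1 - θ) = 1 := by ring
    rw [this, one_pow] at htot
    refine le_trans ?_ (le_of_eq htot)
    refine Finset.sum_le_sum ?_
    intro S _
    have h1θ : 0 ≤ 1 - θ := by linarith
    by_cases hS : S ∈ P
    · rw [Set.indicator_of_mem hS]
    · rw [Set.indicator_of_notMem hS]
      positivity
  · rw [Set.indicator_of_notMem hG]
    refine le_of_eq (Finset.sum_eq_zero ?_)
    intro S hS
    refine Set.indicator_of_notMem ?_ _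
    intro hSP
    exact hG (hP S G (Finset.mem_powerset.1 hS) hSP)

lemma thin_ge {θ : ℝ} (h0 : 0 ≤ θ) (h1 : θ ≤ 1) {P : Set (Finset α)} (hP : Incr P)
    {G S₀ : Finset α} (hS : S₀ ⊆ G) (hSP : S₀ ∈ P) {M : ℕ} (hM : S₀.card ≤ M) :
    θ ^ M ≤ thin θ P G := by
  classical
  unfold thin
  have h1θ : 0 ≤ 1 - θ := by linarith
  have hI := interval_sum θ (1 - θ) hS
  have : θ + (1 - θ) = 1 := by ring
  rw [this, one_pow] at hI
  calc θ ^ M ≤ θ ^ S₀.card := pow_le_pow_of_le_one h0 h1 hM
    _ = θ ^ S₀.card * ∑ S ∈ Finset.Icc S₀ G, θ ^ (S.card - S₀.card) * (1 - θ) ^ (G.card - S.card) := by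
        rw [hI, mul_one]
    _ = ∑ S ∈ Finset.Icc S₀ G, P.indicator (fun S => θ ^ S.card * (1 - θ) ^ (G.card - S.card)) S := by
        rw [Finset.mul_sum]
        refine Finset.sum_congr rfl ?_
        intro S hS'
        have hS0 : S₀ ⊆ S := (Finset.mem_Icc.1 hS').1
        rw [Set.indicator_of_mem (hP S₀ S hS0 hSP)]
        have hc : S₀.card ≤ S.card := Finset.card_le_card hS0
        have e1 : θ ^ S.card = θ ^ S₀.card * θ ^ (S.card - S₀.card) := by
          rw [← pow_add]; congr 1; omega
        rw [e1]; ring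
    _ ≤ _ := by
        refine Finset.sum_le_sum_of_subset_of_nonneg ?_ ?_
        · intro S hS'
          exact Finset.mem_powerset.2 (Finset.mem_Icc.1 hS').2
        · intro S _ _
          refine Set.indicator_nonneg ?_ S
          intro _ _
          positivity

end

variable {α : Type} [Fintype α] [DecidableEq α]

lemma mu_thin (p θ : ℝ) (P : Set (Finset α)) :
    mu (θ * p) P
      = ∑ G : Finset α, p ^ G.card * (1 - p) ^ (Fintype.card α - G.card) * thin θ P G := by
  classical
  unfold mu thin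
  simp_rw [Finset.mul_sum]
  rw [Finset.sum_comm' (t' := Finset.univ) (s' := fun S => Finset.Icc S Finset.univ)]
  · refine Finset.sum_congr rfl ?_
    intro S _
    by_cases hS : S ∈ P
    · simp only [Set.indicator_of_mem hS]
      have h := interval_sum (p * (1 - θ)) (1 - p) (Finset.subset_univ S)
      rw [Finset.card_univ] at h
      have h2 : p * (1 - θ) + (1 - p) = 1 - θ * p := by ring
      rw [h2] at h
      rw [← h, Finset.mul_sum]
      refine Finset.sum_congr rfl ?_
      intro G hG
      have hSG : S ⊆ G := (Finset.mem_Icc.1 hG).1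
      have hc : S.card ≤ G.card := Finset.card_le_card hSG
      have e1 : p ^ G.card = p ^ S.card * p ^ (G.card - S.card) := by
        rw [← pow_add]; congr 1; omega
      rw [e1, mul_pow, mul_pow]
      ring
    · simp [Set.indicator_of_notMem hS]
  · intro G S
    simp [Finset.mem_Icc]

lemma mu_mono_thin {p θ : ℝ} (hp0 : 0 ≤ p) (hp1 : p ≤ 1) (h0 : 0 ≤ θ) (h1 : θ ≤ 1)
    {P : Set (Finset α)} (hP : Incr P) : mu (θ * p) P ≤ mu p P := by
  classical
  rw [mu_thin]
  unfold mu
  refine Finset.sum_le_sum ?_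
  intro G _
  have h1p : 0 ≤ 1 - p := by linarith
  have hw : 0 ≤ p ^ G.card * (1 - p) ^ (Fintype.card α - G.card) := by positivity
  have := mul_le_mul_of_nonneg_left (thin_le h0 h1 hP G) hw
  refine this.trans (le_of_eq ?_)
  by_cases hG : G ∈ P
  · simp [Set.indicator_of_mem hG]
  · simp [Set.indicator_of_notMem hG]

lemma mu_mono {p q : ℝ} (hp0 : 0 ≤ p) (hpq : p ≤ q) (hq1 : q ≤ 1)
    {P : Set (Finset α)} (hP : Incr P) : mu p P ≤ mu q P := by
  rcases eq_or_lt_of_le (hp0.trans hpq) with h | h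
  · have : p = q := by linarith
    rw [this]
  · have e : p = (p / q) * q := by field_simp
    rw [e]
    exact mu_mono_thin h.le hq1 (by positivity) (by rw [div_le_one h]; exact hpq) hP

lemma mu_lower {p θ : ℝ} (hp0 : 0 ≤ p) (hp1 : p ≤ 1) (h0 : 0 ≤ θ) (h1 : θ ≤ 1)
    {P : Set (Finset α)} (hP : Incr P) {M : ℕ} (hM : MintermLE P M) :
    θ ^ M * mu p P ≤ mu (θ * p) P := by
  classical
  rw [mu_thin]
  unfold mu
  rw [Finset.mul_sum]
  refine Finset.sum_le_sum ?_
  intro G _
  have h1p : 0 ≤ 1 - p := by linarith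
  have hw : 0 ≤ p ^ G.card * (1 - p) ^ (Fintype.card α - G.card) := by positivity
  by_cases hG : G ∈ P
  · obtain ⟨S₀, hS, hSP, hc⟩ := hM G hG
    rw [Set.indicator_of_mem hG, mul_comm]
    exact mul_le_mul_of_nonneg_left (thin_ge h0 h1 hP hS hSP hc) hw
  · rw [Set.indicator_of_notMem hG, mul_zero]
    refine mul_nonneg hw ?_
    unfold thin
    refine Finset.sum_nonneg ?_
    intro S _
    refine Set.indicator_nonneg ?_ S
    intro _ _
    have : 0 ≤ 1 - θ := by linarith
    positivity

lemma univ_mem {P : Set (Finset α)} (hP : Incr P) (hN : Nontriv P) : Finset.univ ∈ P := by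
  obtain ⟨H, hH⟩ := hN.1
  exact hP H _ (Finset.subset_univ H) hH

lemma mu_one {P : Set (Finset α)} (hU : Finset.univ ∈ P) : mu 1 P = 1 := by
  classical
  unfold mu
  rw [Finset.sum_eq_single (Finset.univ : Finset α)]
  · rw [Set.indicator_of_mem hU]
    simp
  · intro H _ hH
    by_cases hHP : H ∈ P
    · rw [Set.indicator_of_mem hHP]
      have : H.card < Fintype.card α := by
        rw [← Finset.card_univ]
        exact Finset.card_lt_card (Finset.ssubset_univ_iff.2 hH)
      have h2 : Fintype.card α - H.card ≠ 0 := by omega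
      simp [h2]
    · rw [Set.indicator_of_notMem hHP]
  · intro h; exact absurd (Finset.mem_univ _) h

lemma crit_set_nonempty {P : Set (Finset α)} (hU : Finset.univ ∈ P) {a : ℝ} (ha : a ≤ 1) :
    {p : ℝ | 0 ≤ p ∧ p ≤ 1 ∧ a ≤ mu p P}.Nonempty :=
  ⟨1, by norm_num, le_refl _, by rw [mu_one hU]; exact ha⟩

lemma crit_set_bdd (P : Set (Finset α)) (a : ℝ) :
    BddBelow {p : ℝ | 0 ≤ p ∧ p ≤ 1 ∧ a ≤ mu p P} :=
  ⟨0, fun _ hp => hp.1⟩

lemma crit_nonneg {P : Set (Finset α)} (a : ℝ) : 0 ≤ crit a P := by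
  unfold crit
  exact Real.sInf_nonneg (fun _ hp => hp.1)

/-- the general bound -/
theorem width_ge {P : Set (Finset α)} (hP : Incr P) (hU : Finset.univ ∈ P) {M : ℕ}
    (hM : MintermLE P M) {ε θ : ℝ} (hε : 0 ≤ ε) (h0 : 0 < θ) (h1 : θ ≤ 1)
    (hθ : ε ≤ θ ^ M * (1 - ε)) :
    (1 - θ) * crit (1 - ε) P ≤ width ε P := by
  have key : crit ε P ≤ θ * crit (1 - ε) P := by
    have h2 : crit ε P / θ ≤ crit (1 - ε) P := by
      unfold crit
      refine le_csInf (crit_set_nonempty hU (by linarith)) ?_
      intro p hp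
      rw [div_le_iff₀ h0]
      refine csInf_le (crit_set_bdd P ε) ?_
      refine ⟨by have := hp.1; positivity, ?_, ?_⟩
      · calc p * θ ≤ 1 * 1 := mul_le_mul hp.2.1 h1 h0.le (by norm_num)
          _ = 1 := by norm_num
      · rw [mul_comm]
        refine le_trans ?_ (mu_lower hp.1 hp.2.1 h0.le h1 hP hM)
        refine hθ.trans ?_
        exact mul_le_mul_of_nonneg_left hp.2.2 (by positivity)
    rw [div_le_iff₀ h0] at h2
    linarith
  unfold width
  linarith

/-- lower bound for the critical probability from an upper bound of `mu` -/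
lemma le_crit {P : Set (Finset α)} (hP : Incr P) (hU : Finset.univ ∈ P) {a q : ℝ} (ha : a ≤ 1)
    (hq1 : q ≤ 1) (hq : mu q P < a) : q ≤ crit a P := by
  unfold crit
  refine le_csInf (crit_set_nonempty hU ha) ?_
  intro p hp
  by_contra hlt
  rw [not_le] at hlt
  have := mu_mono hp.1 hlt.le hq1 hP
  linarith [hp.2.2]

end Vale.Agent.P063
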